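import Crest.Agent.Helper87.S0010.Uniq
import Crest.Agent.Helper91.S0010.FT

/-!
# S0010: the statement from the existence theorem (E)

`result_of_E` has the frozen hypotheses and conclusion of S0010 and two extra hypotheses: the
existence (E) of a ring homomorphism inducing `Θ` up to a non-zero scalar, and the same for
`Θ.symm`. Field theory (non-perfectness, `k.map α = l`) is taken from helper91's `FT.lean`,
uniqueness and bijectivity from `Uniq.lean`.
-/

set_option autoImplicit false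
open Crest.NumberTheoryR.MilnorK

namespace Crest.Agent.Helper87.S0010

theorem result_of_E {p : ℕ} [Fact p.Prime]
    {K L : Type*} [Field K] [Field L] [CharP K p] [CharP L p] (k : Subfield K) (l : Subfield L)
    [IsAlgClosed k] [IsAlgClosed l]
    (hK : ∃ s : Finset K, Subfield.closure ((k : Set K) ∪ (s : Set K)) = ⊤)
    (hL : ∃ s : Finset L, Subfield.closure ((l : Set L) ∪ (s : Set L)) = ⊤)
    (hK2 : 2 ≤ Algebra.trdeg k K) (hL2 : 2 ≤ Algebra.trdeg l L)
    (Θ : KOne K p ≃ₗ[ZMod p] KOne L p)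
    (hE : ∃ α : K →+* L, ∃ c : ZMod p, c ≠ 0 ∧
      ∀ u : Kˣ, Θ (cls K p u) = c • cls L p (Units.map α.toMonoidHom u))
    (hE' : ∃ β : L →+* K, ∃ c : ZMod p, c ≠ 0 ∧
      ∀ v : Lˣ, Θ.symm (cls L p v) = c • cls K p (Units.map β.toMonoidHom v)) :
    ∃! α : K ≃+* L, k.map α.toRingHom = l ∧
      ∃ c : ZMod p, c ≠ 0 ∧
        ∀ u : Kˣ, Θ (cls K p u) = c • cls L p (Units.map α.toRingHom.toMonoidHom u) := by
  have hK' : ∃ w : K, ∀ a : K, a ^ p ≠ w := by
    obtain ⟨x, _, hx, _⟩ := Crest.Agent.Helper91.S0010.G1 (p := p) k hK hK2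
    exact ⟨x, fun a ha => hx ⟨a, ha⟩⟩
  have hL' : ∃ w : L, ∀ a : L, a ^ p ≠ w := by
    obtain ⟨x, _, hx, _⟩ := Crest.Agent.Helper91.S0010.G1 (p := p) l hL hL2
    exact ⟨x, fun a ha => hx ⟨a, ha⟩⟩
  exact existsUnique_of k l Θ hK' hL'
    (fun α => Crest.Agent.Helper91.S0010.map_eq_of_ringEquiv (p := p) k l hK hL α) hE hE'

end Crest.Agent.Helper87.S0010
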