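import Mathlib
import Crest.Prelude.Def_MilnorK

/-!
# S0010, work package (U): rigidity of ring homomorphisms acting as a scalar on `K₁/p`

* `eq_zero_of_eval_map_frobenius`: `1, u, …, u^(p-1)` are linearly independent over `L^p` when
  `u ∉ L^p` (polynomial form).
* `ringHom_eq_id_of_cls`: (U).
* `ringEquiv_unique`, `ringEquiv_of_homs`, `existsUnique_of`: uniqueness, bijectivity (A9), final glue.
-/

set_option autoImplicit false
open Crest.NumberTheoryR.MilnorK
open Polynomial

namespace Crest.Agent.Helper87.S0010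

variable {p : ℕ} [hp : Fact p.Prime] {L : Type*} [Field L] [CharP L p]

/-- `1, u, …, u^(p-1)` are linearly independent over `L^p` if `u` is not a `p`-th power:
polynomial form. -/
theorem eq_zero_of_eval_map_frobenius {u : L} (hu : ∀ a : L, a ^ p ≠ u) (R : L[X])
    (hdeg : R.natDegree < p) (h : (R.map (frobenius L p)).eval u = 0) : R = 0 := by
  classical
  set E : Subfield L := (frobenius L p).fieldRange with hE
  set φ : L →+* E := (frobenius L p).rangeRestrictField with hφ
  have hup : u ^ p ∈ E := ⟨u, rfl⟩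
  set a : E := ⟨u ^ p, hup⟩ with ha
  have hirr : Irreducible (X ^ p - C a : E[X]) := by
    apply X_pow_sub_C_irreducible_of_prime hp.out
    rintro ⟨b, c, rfl⟩ hb
    have h1 : (frobenius L p c) ^ p = u ^ p := by
      have := congrArg (Subtype.val) hb
      simpa using this
    have h2 : frobenius L p (frobenius L p c) = frobenius L p u := by
      simpa [frobenius_def] using h1
    exact hu c (frobenius_inj L p h2)
  have hroot : aeval u (X ^ p - C a : E[X]) = 0 := by
    have h0 : algebraMap E L a = u ^ p := rfl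
    simp [h0]
  have hmin : (X ^ p - C a : E[X]) = minpoly E u :=
    minpoly.eq_of_irreducible_of_monic hirr hroot (monic_X_pow_sub_C a hp.out.ne_zero)
  have hR : aeval u (R.map φ) = 0 := by
    rw [aeval_def, eval₂_map]
    have : (algebraMap E L).comp φ = frobenius L p := by
      ext x; rfl
    rw [this, ← eval_map]; exact h
  by_contra hR0
  have hR0' : R.map φ ≠ 0 := by
    rwa [Ne, Polynomial.map_eq_zero]
  have h3 := minpoly.degree_le_of_ne_zero E u hR0' hR
  rw [← hmin, degree_X_pow_sub_C hp.out.pos] at h3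
  have h4 : (R.map φ).degree ≤ R.degree := degree_map_le
  have h5 : R.degree < p := by
    rw [degree_eq_natDegree hR0]; exact_mod_cast hdeg
  exact absurd (h3.trans h4) (not_le.mpr h5)

/-! ### Elementary facts on `cls` -/

omit hp [CharP L p] in
theorem cls_eq_cls_iff {u v : Lˣ} : cls L p u = cls L p v ↔ ∃ w : Lˣ, v = u * w ^ p := by
  unfold cls
  rw [QuotientAddGroup.eq]
  constructor
  · rintro ⟨w, hw⟩
    refine ⟨Additive.toMul w, ?_⟩
    have h1 : Additive.toMul (nsmulAddMonoidHom p w) = Additive.toMul (-Additive.ofMul u + Additive.ofMul v) :=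
      congrArg _ hw
    simp at h1
    rw [h1]; simp
  · rintro ⟨w, rfl⟩
    refine ⟨Additive.ofMul w, ?_⟩
    apply Additive.toMul.injective
    simp

omit [CharP L p] in
theorem zmod_smul_cls (e : ZMod p) (u : Lˣ) : e • cls L p u = cls L p (u ^ e.val) := by
  have : NeZero p := ⟨hp.out.ne_zero⟩
  conv_lhs => rw [← ZMod.natCast_zmod_val e]
  rw [Nat.cast_smul_eq_nsmul]
  rfl

/-! ### (U) -/

/-- A non-`p`-th power plus a `p`-th power is not a `p`-th power. -/
theorem not_pth_add {w : L} (hw : ∀ a : L, a ^ p ≠ w) (c : L) : ∀ a : L, a ^ p ≠ w + c ^ p := by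
  intro a h
  apply hw (a - c)
  rw [sub_pow_char, h]; ring

theorem ringHom_apply_eq_self_of_not_pth (γ : L →+* L) (e : ZMod p) (he : e ≠ 0)
    (h : ∀ v : Lˣ, cls L p (Units.map γ.toMonoidHom v) = e • cls L p v)
    {u : L} (hu : ∀ a : L, a ^ p ≠ u) : γ u = u := by
  have : NeZero p := ⟨hp.out.ne_zero⟩
  set n := e.val with hn
  have hn0 : n ≠ 0 := by rwa [hn, Ne, ZMod.val_eq_zero]
  have hnp : n < p := ZMod.val_lt e
  have hu0 : u ≠ 0 := by rintro rfl; exact hu 0 (zero_pow hp.out.ne_zero)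
  have hu1 : ∀ a : L, a ^ p ≠ u + 1 := by simpa using not_pth_add hu 1
  have hu10 : u + 1 ≠ 0 := by intro h0; exact hu1 0 (by rw [h0, zero_pow hp.out.ne_zero])
  have key : ∀ t : L, t ≠ 0 → ∃ a : Lˣ, γ t = t ^ n * (a : L) ^ p := by
    intro t ht
    have h1 := h (Units.mk0 t ht)
    rw [zmod_smul_cls, eq_comm, cls_eq_cls_iff] at h1
    obtain ⟨w, hw⟩ := h1
    refine ⟨w, ?_⟩
    have h2 := congrArg (Units.val) hw
    simpa using h2
  obtain ⟨a, ha⟩ := key u hu0
  obtain ⟨b, hb⟩ := key (u + 1) hu10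
  have hdeg : (C (b : L) * (X + 1) ^ n - C (a : L) * X ^ n - 1 : L[X]).natDegree < p := by
    refine lt_of_le_of_lt ?_ hnp
    compute_degree
  have heval : ((C (b : L) * (X + 1) ^ n - C (a : L) * X ^ n - 1 : L[X]).map (frobenius L p)).eval u
      = 0 := by
    simp only [Polynomial.map_sub, Polynomial.map_mul, Polynomial.map_pow, Polynomial.map_add,
      Polynomial.map_one, map_X, map_C, frobenius_def, eval_sub, eval_mul, eval_pow, eval_add,
      eval_one, eval_X, eval_C]
    have h3 : γ (u + 1) = γ u + 1 := by simp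
    rw [hb, ha] at h3
    linear_combination h3
  have hR := eq_zero_of_eval_map_frobenius hu _ hdeg heval
  -- evaluate at `0`
  have hb1 : (b : L) = 1 := by
    have h0 := congrArg (eval 0) hR
    simp [hn0] at h0
    linear_combination h0
  -- derivative at `0`
  have hn1 : n = 1 := by
    by_contra hne
    have hn2 : n - 1 ≠ 0 := by omega
    have h0 := congrArg (fun q => eval 0 (derivative q)) hR
    simp [hn2, hb1, derivative_pow] at h0
    rw [CharP.cast_eq_zero_iff L p] at h0
    exact absurd (Nat.le_of_dvd (Nat.pos_of_ne_zero hn0) h0) (not_le.mpr hnp)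
  -- evaluate at `-1`
  have ha1 : (a : L) = 1 := by
    have h0 := congrArg (eval (-1)) hR
    simp [hn1] at h0
    linear_combination h0
  rw [ha, hn1, ha1]; simp

/-- **(U)**: a ring endomorphism of a non-perfect field of characteristic `p` which acts on
`Lˣ/(Lˣ)^p` as a non-zero scalar is the identity. -/
theorem ringHom_eq_id_of_cls (γ : L →+* L) (e : ZMod p) (he : e ≠ 0)
    (hnp : ∃ w : L, ∀ a : L, a ^ p ≠ w)
    (h : ∀ v : Lˣ, cls L p (Units.map γ.toMonoidHom v) = e • cls L p v) : γ = RingHom.id L := by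
  obtain ⟨w, hw⟩ := hnp
  ext u
  by_cases hu : ∃ a, a ^ p = u
  · obtain ⟨c, rfl⟩ := hu
    have h1 := ringHom_apply_eq_self_of_not_pth γ e he h (not_pth_add hw c)
    have h2 := ringHom_apply_eq_self_of_not_pth γ e he h hw
    rw [map_add, h2] at h1
    simpa using h1
  · exact ringHom_apply_eq_self_of_not_pth γ e he h (fun a ha => hu ⟨a, ha⟩)

/-! ### Uniqueness, bijectivity, final glue -/

variable {K : Type*} [Field K] [CharP K p]

omit [CharP K p] in
/-- Uniqueness part of the statement. -/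
theorem ringEquiv_unique (Θ : KOne K p ≃ₗ[ZMod p] KOne L p) (hL : ∃ w : L, ∀ a : L, a ^ p ≠ w)
    {α α' : K ≃+* L} {c c' : ZMod p} (hc : c ≠ 0) (hc' : c' ≠ 0)
    (h : ∀ u : Kˣ, Θ (cls K p u) = c • cls L p (Units.map α.toRingHom.toMonoidHom u))
    (h' : ∀ u : Kˣ, Θ (cls K p u) = c' • cls L p (Units.map α'.toRingHom.toMonoidHom u)) :
    α = α' := by
  have key : α'.toRingHom.comp α.symm.toRingHom = RingHom.id L := by
    apply ringHom_eq_id_of_cls _ (c'⁻¹ * c) (mul_ne_zero (inv_ne_zero hc') hc) hL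
    intro v
    have h1 := h (Units.map α.symm.toRingHom.toMonoidHom v)
    have h2 := h' (Units.map α.symm.toRingHom.toMonoidHom v)
    have e1 : Units.map α.toRingHom.toMonoidHom (Units.map α.symm.toRingHom.toMonoidHom v) = v := by
      ext; simp
    have e2 : Units.map α'.toRingHom.toMonoidHom (Units.map α.symm.toRingHom.toMonoidHom v)
        = Units.map (α'.toRingHom.comp α.symm.toRingHom).toMonoidHom v := by
      ext; simp
    rw [e1] at h1; rw [e2] at h2
    rw [h1] at h2
    rw [mul_smul, h2, smul_smul, inv_mul_cancel₀ hc', one_smul]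
  ext x
  have h3 := congrArg (fun f : L →+* L => f (α x)) key
  simpa using h3.symm

/-- (A9): a ring homomorphism inducing `Θ` up to a scalar, together with one inducing `Θ⁻¹` up to a
scalar, is an isomorphism. -/
theorem exists_ringEquiv_of_homs (Θ : KOne K p ≃ₗ[ZMod p] KOne L p)
    (hK : ∃ w : K, ∀ a : K, a ^ p ≠ w) (hL : ∃ w : L, ∀ a : L, a ^ p ≠ w)
    (α : K →+* L) (β : L →+* K) {c c' : ZMod p} (hc : c ≠ 0) (hc' : c' ≠ 0)
    (h : ∀ u : Kˣ, Θ (cls K p u) = c • cls L p (Units.map α.toMonoidHom u))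
    (h' : ∀ v : Lˣ, Θ.symm (cls L p v) = c' • cls K p (Units.map β.toMonoidHom v)) :
    ∃ a : K ≃+* L, a.toRingHom = α := by
  have h1 : α.comp β = RingHom.id L := by
    apply ringHom_eq_id_of_cls _ (c⁻¹ * c'⁻¹) (mul_ne_zero (inv_ne_zero hc) (inv_ne_zero hc')) hL
    intro v
    have e1 := h (Units.map β.toMonoidHom v)
    have e2 := congrArg Θ (h' v)
    rw [LinearEquiv.apply_symm_apply, map_smul, e1] at e2
    have e3 : Units.map α.toMonoidHom (Units.map β.toMonoidHom v)
        = Units.map (α.comp β).toMonoidHom v := by ext; simp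
    rw [e3] at e2
    have hs : c⁻¹ * c'⁻¹ * c' * c = 1 := by field_simp
    rw [e2, smul_smul, smul_smul, hs, one_smul]
  have h2 : β.comp α = RingHom.id K := by
    apply ringHom_eq_id_of_cls _ (c'⁻¹ * c⁻¹) (mul_ne_zero (inv_ne_zero hc') (inv_ne_zero hc)) hK
    intro u
    have e1 := h' (Units.map α.toMonoidHom u)
    have e2 := congrArg Θ.symm (h u)
    rw [LinearEquiv.symm_apply_apply, map_smul, e1] at e2
    have e3 : Units.map β.toMonoidHom (Units.map α.toMonoidHom u)
        = Units.map (β.comp α).toMonoidHom u := by ext; simp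
    rw [e3] at e2
    have hs : c'⁻¹ * c⁻¹ * c * c' = 1 := by field_simp
    rw [e2, smul_smul, smul_smul, hs, one_smul]
  exact ⟨RingEquiv.ofRingHom α β h1 h2, rfl⟩

/-- `IsCompatible` is symmetric. -/
theorem isCompatible_symm {K : Type*} [Field K] {L : Type*} [Field L] {p : ℕ}
    {Θ : KOne K p ≃ₗ[ZMod p] KOne L p} (hΘ : IsCompatible Θ) :
    IsCompatible Θ.symm := by
  unfold IsCompatible at *
  rw [← hΘ, ← Submodule.map_comp, ← TensorProduct.map_comp]
  simp

/-- Final glue: the statement of S0010 from (E) the existence of homomorphisms inducing `Θ` and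
`Θ⁻¹` up to non-zero scalars, (G2) every isomorphism maps `k` onto `l`, and non-perfectness. -/
theorem existsUnique_of (k : Subfield K) (l : Subfield L) (Θ : KOne K p ≃ₗ[ZMod p] KOne L p)
    (hK : ∃ w : K, ∀ a : K, a ^ p ≠ w) (hL : ∃ w : L, ∀ a : L, a ^ p ≠ w)
    (hG2 : ∀ α : K ≃+* L, k.map α.toRingHom = l)
    (hE : ∃ α : K →+* L, ∃ c : ZMod p, c ≠ 0 ∧
      ∀ u : Kˣ, Θ (cls K p u) = c • cls L p (Units.map α.toMonoidHom u))
    (hE' : ∃ β : L →+* K, ∃ c : ZMod p, c ≠ 0 ∧
      ∀ v : Lˣ, Θ.symm (cls L p v) = c • cls K p (Units.map β.toMonoidHom v)) :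
    ∃! α : K ≃+* L, k.map α.toRingHom = l ∧
      ∃ c : ZMod p, c ≠ 0 ∧
        ∀ u : Kˣ, Θ (cls K p u) = c • cls L p (Units.map α.toRingHom.toMonoidHom u) := by
  obtain ⟨α, c, hc, h⟩ := hE
  obtain ⟨β, c', hc', h'⟩ := hE'
  obtain ⟨a, ha⟩ := exists_ringEquiv_of_homs Θ hK hL α β hc hc' h h'
  refine ⟨a, ⟨hG2 a, c, hc, ?_⟩, ?_⟩
  · intro u; rw [ha]; exact h u
  · rintro a' ⟨-, c'', hc'', h''⟩
    refine ringEquiv_unique Θ hL hc'' hc h'' ?_
    intro u; rw [ha]; exact h u

end Crest.Agent.Helper87.S0010
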